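import Mathlib

/-!
# Asymptotic uniform convexity and asymptotic midpoint uniform convexity

The moduli of the problem statement, with values in the extended reals, so that all infima and
suprema are honest ones.
-/

namespace Vale.Agent.P069

section defs

variable (X : Type*) [NormedAddCommGroup X] [NormedSpace ℝ X]

/-- `cof(X)`: the closed subspaces of `X` of finite codimension. -/
def cof : Set (Submodule ℝ X) :=
  {F | IsClosed (F : Set X) ∧ FiniteDimensional ℝ (X ⧸ F)}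

variable {X}

/-- `N` is an equivalent norm on `X`. -/
def IsEquivalentNorm (N : Seminorm ℝ X) : Prop :=
  ∃ a b : ℝ, 0 < a ∧ ∀ x : X, a * ‖x‖ ≤ N x ∧ N x ≤ b * ‖x‖

/-- `δ̄_N(t) = inf_{N(x)=1} sup_{F ∈ cof(X)} inf_{y ∈ F, N(y)=1} (N(x+ty) - 1)`. -/
noncomputable def aucModulus (N : Seminorm ℝ X) (t : ℝ) : EReal :=
  ⨅ (x : X) (_ : N x = 1), ⨆ (F : Submodule ℝ X) (_ : F ∈ cof X),
    ⨅ (y : X) (_ : y ∈ F ∧ N y = 1), ((N (x + t • y) - 1 : ℝ) : EReal)

/-- `m_N(t) = inf_{N(x)=1} sup_{F ∈ cof(X)} inf_{y ∈ F, N(y)=1} (max{N(x+ty), N(x-ty)} - 1)`. -/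
noncomputable def amucModulus (N : Seminorm ℝ X) (t : ℝ) : EReal :=
  ⨅ (x : X) (_ : N x = 1), ⨆ (F : Submodule ℝ X) (_ : F ∈ cof X),
    ⨅ (y : X) (_ : y ∈ F ∧ N y = 1), ((max (N (x + t • y)) (N (x - t • y)) - 1 : ℝ) : EReal)

/-- `N` is asymptotically uniformly convex. -/
def IsAUC (N : Seminorm ℝ X) : Prop := ∀ t : ℝ, 0 < t → 0 < aucModulus N t

/-- `N` is asymptotically midpoint uniformly convex. -/
def IsAMUC (N : Seminorm ℝ X) : Prop := ∀ t : ℝ, 0 < t → 0 < amucModulus N t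

variable (X)

/-- `X` has an equivalent asymptotically uniformly convex norm. -/
def AUCRenormable : Prop := ∃ N : Seminorm ℝ X, IsEquivalentNorm N ∧ IsAUC N

/-- `X` has an equivalent asymptotically midpoint uniformly convex norm. -/
def AMUCRenormable : Prop := ∃ N : Seminorm ℝ X, IsEquivalentNorm N ∧ IsAMUC N

end defs

end Vale.Agent.P069
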