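import Mathlib

/-!
# Reflexivity: Hilbert spaces, isomorphic copies, duals, and `ℓ₂`-sums
-/

namespace Vale.Agent.P069

open scoped ENNReal

/-- A normed space is reflexive if the canonical map into its bidual is surjective. -/
def IsReflexive (X : Type*) [NormedAddCommGroup X] [NormedSpace ℝ X] : Prop :=
  Function.Surjective (NormedSpace.inclusionInDoubleDual ℝ X)

lemma IsReflexive.of_equiv {X Y : Type*} [NormedAddCommGroup X] [NormedSpace ℝ X]
    [NormedAddCommGroup Y] [NormedSpace ℝ Y] (e : X ≃L[ℝ] Y) (h : IsReflexive X) :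
    IsReflexive Y := by
  intro Φ
  obtain ⟨x, hx⟩ := h (Φ.comp (ContinuousLinearMap.precomp ℝ (e.symm : Y →L[ℝ] X)))
  refine ⟨e x, ?_⟩
  ext g
  have := congrArg (fun T => T (g.comp (e : X →L[ℝ] Y))) hx
  simp only [NormedSpace.dual_def] at this
  rw [NormedSpace.dual_def]
  have h2 : (ContinuousLinearMap.precomp ℝ (e.symm : Y →L[ℝ] X)) (g.comp (e : X →L[ℝ] Y)) = g := by
    ext y; simp
  simp only [ContinuousLinearMap.comp_apply] at this
  rw [h2] at this
  simpa using this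

lemma isReflexive_of_innerProductSpace (H : Type*) [NormedAddCommGroup H]
    [InnerProductSpace ℝ H] [CompleteSpace H] : IsReflexive H := by
  intro Φ
  let ℓ : H →ₗ[ℝ] ℝ :=
    { toFun := fun u => Φ (InnerProductSpace.toDual ℝ H u)
      map_add' := by intro u v; simp
      map_smul' := by intro c u; simp }
  let L : StrongDual ℝ H := LinearMap.mkContinuous ℓ ‖Φ‖ (by
    intro u
    have := Φ.le_opNorm (InnerProductSpace.toDual ℝ H u)
    simpa [ℓ] using this)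
  refine ⟨(InnerProductSpace.toDual ℝ H).symm L, ?_⟩
  ext g
  obtain ⟨u, rfl⟩ := (InnerProductSpace.toDual ℝ H).surjective g
  rw [NormedSpace.dual_def]
  have h1 : inner ℝ ((InnerProductSpace.toDual ℝ H).symm L) u = L u := by
    rw [InnerProductSpace.toDual_symm_apply]
  have h2 : L u = Φ (InnerProductSpace.toDual ℝ H u) := rfl
  rw [← h2, ← h1, InnerProductSpace.toDual_apply_apply, real_inner_comm]

lemma IsReflexive.dual {X : Type*} [NormedAddCommGroup X] [NormedSpace ℝ X]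
    (h : IsReflexive X) : IsReflexive (StrongDual ℝ X) := by
  intro Ψ
  refine ⟨Ψ.comp (NormedSpace.inclusionInDoubleDual ℝ X), ?_⟩
  ext η
  obtain ⟨x, rfl⟩ := h η
  rw [NormedSpace.dual_def, NormedSpace.dual_def]
  rfl

section lpsum

variable {E : ℕ → Type*} [∀ n, NormedAddCommGroup (E n)] [∀ n, NormedSpace ℝ (E n)]

/-- Restriction of a functional on the `ℓ₂`-sum to a coordinate space. -/
noncomputable def coordFun (ξ : StrongDual ℝ (lp E 2)) (n : ℕ) : StrongDual ℝ (E n) :=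
  ξ.comp (lp.singleContinuousLinearMap ℝ E 2 n)

lemma coordFun_apply (ξ : StrongDual ℝ (lp E 2)) (n : ℕ) (v : E n) :
    coordFun ξ n v = ξ (lp.single 2 n v) := rfl

lemma exists_near {F : Type*} [NormedAddCommGroup F] [NormedSpace ℝ F] (ξ : StrongDual ℝ F)
    {η : ℝ} (hη : 0 < η) : ∃ v : F, ‖v‖ ≤ 1 ∧ (1 - η) * ‖ξ‖ ≤ ξ v := by
  rcases eq_or_ne ξ 0 with h | h
  · refine ⟨0, by simp, by simp [h]⟩
  · have hpos : 0 < ‖ξ‖ := norm_pos_iff.mpr h
    obtain ⟨v, hv, hv2⟩ := ξ.exists_lt_apply_of_lt_opNorm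
      (show (1 - η) * ‖ξ‖ < ‖ξ‖ by nlinarith)
    rcases le_total 0 (ξ v) with h0 | h0
    · refine ⟨v, hv.le, ?_⟩
      rw [Real.norm_of_nonneg h0] at hv2
      exact hv2.le
    · refine ⟨-v, by simpa using hv.le, ?_⟩
      rw [Real.norm_of_nonpos h0] at hv2
      simpa using hv2.le

lemma norm_sum_single_sq (s : Finset ℕ) (v : ∀ n, E n) :
    ‖∑ n ∈ s, lp.single (E := E) 2 n (v n)‖ ^ 2 = ∑ n ∈ s, ‖v n‖ ^ 2 := by
  have := lp.norm_sum_single (E := E) (p := 2) (by norm_num) v s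
  simpa using this

lemma sum_coordFun_sq_le (ξ : StrongDual ℝ (lp E 2)) (s : Finset ℕ) :
    ∑ n ∈ s, ‖coordFun ξ n‖ ^ 2 ≤ ‖ξ‖ ^ 2 := by
  set Q : ℝ := ∑ n ∈ s, ‖coordFun ξ n‖ ^ 2 with hQ
  have hQ0 : 0 ≤ Q := Finset.sum_nonneg fun _ _ => sq_nonneg _
  have key : ∀ η : ℝ, 0 < η → η < 1 → (1 - η) * Real.sqrt Q ≤ ‖ξ‖ := by
    intro η hη hη1
    choose v hv1 hv2 using fun n => exists_near (coordFun ξ n) hη
    let w : lp E 2 := ∑ n ∈ s, lp.single 2 n (‖coordFun ξ n‖ • v n)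
    have hw : ‖w‖ ^ 2 ≤ Q := by
      rw [norm_sum_single_sq (E := E) s (fun n => ‖coordFun ξ n‖ • v n)]
      apply Finset.sum_le_sum
      intro n _
      rw [norm_smul, norm_norm]
      have : ‖coordFun ξ n‖ * ‖v n‖ ≤ ‖coordFun ξ n‖ := by
        nlinarith [norm_nonneg (coordFun ξ n), hv1 n]
      exact pow_le_pow_left₀ (by positivity) this 2
    have hw' : ‖w‖ ≤ Real.sqrt Q := by
      apply Real.le_sqrt_of_sq_le hw
    have h3 : (1 - η) * Q ≤ ξ w := by
      have : ξ w = ∑ n ∈ s, ‖coordFun ξ n‖ * coordFun ξ n (v n) := by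
        simp only [w, map_sum]
        apply Finset.sum_congr rfl
        intro n _
        rw [← coordFun_apply, map_smul, smul_eq_mul]
      rw [this, hQ, Finset.mul_sum]
      apply Finset.sum_le_sum
      intro n _
      have := hv2 n
      nlinarith [norm_nonneg (coordFun ξ n)]
    have h4 : ξ w ≤ ‖ξ‖ * Real.sqrt Q := by
      calc ξ w ≤ ‖ξ w‖ := le_abs_self _
        _ ≤ ‖ξ‖ * ‖w‖ := ξ.le_opNorm w
        _ ≤ _ := by gcongr
    have h5 : Real.sqrt Q * Real.sqrt Q = Q := Real.mul_self_sqrt hQ0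
    rcases (Real.sqrt_nonneg Q).eq_or_lt with h0 | h0
    · rw [← h0]; simp
    · have : ((1 - η) * Real.sqrt Q) * Real.sqrt Q ≤ ‖ξ‖ * Real.sqrt Q := by
        calc _ = (1 - η) * Q := by rw [mul_assoc, h5]
          _ ≤ _ := h3.trans h4
      exact le_of_mul_le_mul_right this h0
  have : Real.sqrt Q ≤ ‖ξ‖ := by
    by_contra hcon
    push Not at hcon
    have hsq : 0 < Real.sqrt Q := lt_of_le_of_lt (norm_nonneg _) hcon
    have hη : 0 < (Real.sqrt Q - ‖ξ‖) / (2 * Real.sqrt Q) := by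
      apply div_pos (by linarith) (by linarith)
    have hη1 : (Real.sqrt Q - ‖ξ‖) / (2 * Real.sqrt Q) < 1 := by
      rw [div_lt_one (by linarith)]
      linarith [norm_nonneg ξ]
    have := key _ hη hη1
    have h6 : (1 - (Real.sqrt Q - ‖ξ‖) / (2 * Real.sqrt Q)) * Real.sqrt Q
        = (Real.sqrt Q + ‖ξ‖) / 2 := by
      field_simp
      ring
    rw [h6] at this
    linarith
  calc Q = Real.sqrt Q ^ 2 := (Real.sq_sqrt hQ0).symm
    _ ≤ ‖ξ‖ ^ 2 := by gcongr

lemma memℓp_coordFun (ξ : StrongDual ℝ (lp E 2)) :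
    Memℓp (E := fun n => StrongDual ℝ (E n)) (fun n => coordFun ξ n) 2 := by
  apply memℓp_gen' (C := ‖ξ‖ ^ 2)
  intro s
  simpa using sum_coordFun_sq_le ξ s

lemma hasSum_coordFun (ξ : StrongDual ℝ (lp E 2)) (x : lp E 2) :
    HasSum (fun n => coordFun ξ n (x n)) (ξ x) := by
  have := (lp.hasSum_single (E := E) (p := 2) (by norm_num) x).mapL ξ
  simpa [coordFun_apply] using this

/-- The `ℓ₂`-sum of reflexive spaces is reflexive. -/
theorem isReflexive_lp (h : ∀ n, IsReflexive (E n)) : IsReflexive (lp E 2) := by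
  intro Φ
  -- the pairing map `J : ℓ₂(E n*) → (ℓ₂(E n))*`
  let B : ∀ n, StrongDual ℝ (E n) →L[ℝ] E n →L[ℝ] ℝ := fun n => ContinuousLinearMap.id ℝ _
  have hB : ∀ n, ‖B n‖ ≤ ((1 : NNReal) : ℝ) := fun n => by
    simpa using (ContinuousLinearMap.norm_id_le (𝕜 := ℝ) (E := StrongDual ℝ (E n)))
  let J : lp (fun n => StrongDual ℝ (E n)) 2 →L[ℝ] lp E 2 →L[ℝ] ℝ :=
    lp.dualPairing 2 2 (H := ℝ) B hB
  have hJ : ∀ (ξ : lp (fun n => StrongDual ℝ (E n)) 2) (x : lp E 2),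
      J ξ x = ∑' n, (ξ n) (x n) := fun ξ x => lp.dualPairing_apply B hB ξ x
  have hJsurj : ∀ ξ : StrongDual ℝ (lp E 2), J ⟨fun n => coordFun ξ n, memℓp_coordFun ξ⟩ = ξ := by
    intro ξ
    ext x
    rw [hJ]
    exact (hasSum_coordFun ξ x).tsum_eq
  let Ψ : StrongDual ℝ (lp (fun n => StrongDual ℝ (E n)) 2) := Φ.comp J
  choose x hx using fun n => h n (coordFun Ψ n)
  have hxn : ∀ n, ‖x n‖ = ‖coordFun Ψ n‖ := by
    intro n
    rw [← hx n]
    exact ((NormedSpace.inclusionInDoubleDualLi (E := E n) ℝ).norm_map (x n)).symm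
  have hmem : Memℓp (E := E) x 2 := by
    apply memℓp_gen' (C := ‖Ψ‖ ^ 2)
    intro s
    simp only [hxn]
    simpa using sum_coordFun_sq_le Ψ s
  refine ⟨⟨x, hmem⟩, ?_⟩
  ext ξ
  rw [NormedSpace.dual_def]
  have h1 : HasSum (fun n => coordFun Ψ n (coordFun ξ n)) (Φ ξ) := by
    have := hasSum_coordFun Ψ ⟨fun n => coordFun ξ n, memℓp_coordFun ξ⟩
    have h2 : Ψ ⟨fun n => coordFun ξ n, memℓp_coordFun ξ⟩ = Φ ξ := by
      change Φ (J _) = Φ ξ
      rw [hJsurj]
    rw [h2] at this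
    exact this
  have h3 : HasSum (fun n => coordFun ξ n (x n)) (ξ ⟨x, hmem⟩) := hasSum_coordFun ξ ⟨x, hmem⟩
  have h4 : ∀ n, coordFun Ψ n (coordFun ξ n) = coordFun ξ n (x n) := by
    intro n
    rw [← hx n, NormedSpace.dual_def]
  simp only [h4] at h1
  exact h3.unique h1

end lpsum

end Vale.Agent.P069
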