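import Mathlib

/-!
# Functions on the countably branching tree `List ℕ`

The nodes are the finite lists of natural numbers; the parent of `j :: l` is `l`.
-/

namespace Vale.Agent.P069

open scoped ENNReal

/-- Sum of `f` over all predecessors (suffixes) of a node, the node included. -/
def phi (f : List ℕ → ℝ) : List ℕ → ℝ
  | [] => f []
  | j :: l => f (j :: l) + phi f l

/-- The increments of a function along the tree. -/
def dd (κ : List ℕ → ℝ) : List ℕ → ℝ
  | [] => κ []
  | j :: l => κ (j :: l) - κ l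

@[simp] lemma phi_nil (f : List ℕ → ℝ) : phi f [] = f [] := rfl

@[simp] lemma phi_cons (f : List ℕ → ℝ) (j : ℕ) (l : List ℕ) :
    phi f (j :: l) = f (j :: l) + phi f l := rfl

lemma phi_dd (κ : List ℕ → ℝ) (l : List ℕ) : phi (dd κ) l = κ l := by
  induction l with
  | nil => rfl
  | cons j l ih => simp [dd, ih]

lemma phi_add (f g : List ℕ → ℝ) (l : List ℕ) : phi (f + g) l = phi f l + phi g l := by
  induction l with
  | nil => rfl
  | cons j l ih => simp only [phi_cons, ih, Pi.add_apply]; ring

lemma phi_smul (c : ℝ) (f : List ℕ → ℝ) (l : List ℕ) : phi (c • f) l = c * phi f l := by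
  induction l with
  | nil => rfl
  | cons j l ih => simp only [phi_cons, ih, Pi.smul_apply, smul_eq_mul]; ring

lemma phi_sub (f g : List ℕ → ℝ) (l : List ℕ) : phi (f - g) l = phi f l - phi g l := by
  induction l with
  | nil => rfl
  | cons j l ih => simp only [phi_cons, ih, Pi.sub_apply]; ring

lemma abs_phi_le {f : List ℕ → ℝ} {C : ℝ} (hf : ∀ l, |f l| ≤ C) (l : List ℕ) :
    |phi f l| ≤ (l.length + 1) * C := by
  induction l with
  | nil => simpa using hf []
  | cons j l ih =>
    simp only [phi_cons, List.length_cons, Nat.cast_add, Nat.cast_one]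
    calc |f (j :: l) + phi f l| ≤ |f (j :: l)| + |phi f l| := abs_add_le _ _
      _ ≤ C + (l.length + 1) * C := add_le_add (hf _) ih
      _ = _ := by ring

/-- A finite set of nodes closed under taking parents. -/
def SuffClosed (A : Finset (List ℕ)) : Prop := ∀ j l, j :: l ∈ A → l ∈ A

/-- restriction of a function to a set of nodes -/
def res (A : Finset (List ℕ)) (f : List ℕ → ℝ) : List ℕ → ℝ :=
  fun l => if l ∈ A then f l else 0

lemma res_mem {A : Finset (List ℕ)} {f : List ℕ → ℝ} {l : List ℕ} (h : l ∈ A) :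
    res A f l = f l := if_pos h

lemma res_not_mem {A : Finset (List ℕ)} {f : List ℕ → ℝ} {l : List ℕ} (h : l ∉ A) :
    res A f l = 0 := if_neg h

lemma phi_res_mem {A : Finset (List ℕ)} (hA : SuffClosed A) (f : List ℕ → ℝ) (l : List ℕ)
    (h : l ∈ A) : phi (res A f) l = phi f l := by
  induction l with
  | nil => simp [res_mem h]
  | cons j l ih => simp only [phi_cons, res_mem h, ih (hA j l h)]

lemma abs_phi_res_le {A : Finset (List ℕ)} (hA : SuffClosed A) (f : List ℕ → ℝ) (n : ℕ) {C : ℝ}
    (hC : 0 ≤ C) (hf : ∀ l : List ℕ, l.length ≤ n → |phi f l| ≤ C) (l : List ℕ)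
    (hl : l.length ≤ n) : |phi (res A f) l| ≤ C := by
  induction l with
  | nil =>
    by_cases h : ([] : List ℕ) ∈ A
    · rw [phi_res_mem hA f [] h]; exact hf _ hl
    · simp [res_not_mem h, hC]
  | cons j l ih =>
    by_cases h : j :: l ∈ A
    · rw [phi_res_mem hA f _ h]; exact hf _ hl
    · simp only [phi_cons, res_not_mem h, zero_add]
      apply ih
      simp only [List.length_cons] at hl
      omega

/-- The two one-sided parts.  `a` is the function whose sign must be opposed, `b` is the function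
that is split, `τ = ±1` chooses the part. -/
noncomputable def kap (τ : ℝ) (a b : List ℕ → ℝ) (l : List ℕ) : ℝ :=
  if 0 ≤ a l then -(max (τ * b l) 0) else max (-(τ * b l)) 0

lemma kap_sum (a b : List ℕ → ℝ) (l : List ℕ) :
    b l = - kap 1 a b l + kap (-1) a b l := by
  unfold kap
  split_ifs <;> rcases le_total 0 (b l) with h | h <;>
    simp only [one_mul, neg_mul, neg_neg] <;>
    first
      | rw [max_eq_left (by linarith), max_eq_right (by linarith)]; ring
      | rw [max_eq_right (by linarith), max_eq_left (by linarith)]; ring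

lemma abs_kap_le {τ : ℝ} (hτ : |τ| = 1) (a b : List ℕ → ℝ) (l : List ℕ) :
    |kap τ a b l| ≤ |b l| := by
  have h1 : |τ * b l| = |b l| := by rw [abs_mul, hτ, one_mul]
  unfold kap
  split_ifs
  · rw [abs_neg, abs_of_nonneg (le_max_right _ _), ← h1]
    exact max_le (le_abs_self _) (abs_nonneg _)
  · rw [abs_of_nonneg (le_max_right _ _), ← h1]
    exact max_le (neg_le_abs _) (abs_nonneg _)

lemma kap_mul_nonpos (τ : ℝ) (a b : List ℕ → ℝ) (l : List ℕ) : a l * kap τ a b l ≤ 0 := by
  unfold kap
  split_ifs with h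
  · have : 0 ≤ max (τ * b l) 0 := le_max_right _ _
    nlinarith
  · push Not at h
    have : 0 ≤ max (-(τ * b l)) 0 := le_max_right _ _
    nlinarith

lemma kap_zero (τ : ℝ) (a b : List ℕ → ℝ) (l : List ℕ) (h : b l = 0) : kap τ a b l = 0 := by
  unfold kap
  split_ifs <;> simp [h]

lemma abs_kap_sub_le {τ : ℝ} (hτ : |τ| = 1) (a b : List ℕ → ℝ) (l l' : List ℕ) (h : a l = a l') :
    |kap τ a b l - kap τ a b l'| ≤ |b l - b l'| := by
  have h1 : |τ * b l - τ * b l'| = |b l - b l'| := by
    rw [← mul_sub, abs_mul, hτ, one_mul]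
  unfold kap
  rw [h]
  split_ifs
  · rw [neg_sub_neg, abs_sub_comm, ← h1]
    exact abs_max_sub_max_le_abs _ _ _
  · have h2 : |-(τ * b l) - -(τ * b l')| = |b l - b l'| := by
      rw [neg_sub_neg, abs_sub_comm, h1]
    rw [← h2]
    exact abs_max_sub_max_le_abs _ _ _

/-- The function `phi` of the part of `h` living off `A` vanishes on `A`. -/
lemma phi_off_mem {A : Finset (List ℕ)} (hA : SuffClosed A) (h : List ℕ → ℝ) (l : List ℕ)
    (hl : l ∈ A) : phi (h - res A h) l = 0 := by
  rw [phi_sub, phi_res_mem hA h l hl, sub_self]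

lemma res_off (A : Finset (List ℕ)) (h : List ℕ → ℝ) (l : List ℕ) (hl : l ∉ A) :
    (h - res A h) l = h l := by
  simp [res_not_mem hl]

/-- The increments of a one-sided part, dominated by the increments of `h`. -/
lemma abs_dd_kap_le {A : Finset (List ℕ)} (hA : SuffClosed A) {τ : ℝ} (hτ : |τ| = 1)
    (f h : List ℕ → ℝ) (l : List ℕ) :
    |dd (kap τ (phi (res A f)) (phi (h - res A h))) l| ≤ |h l| := by
  cases l with
  | nil =>
    change |kap τ (phi (res A f)) (phi (h - res A h)) []| ≤ |h []|
    refine (abs_kap_le hτ _ _ _).trans ?_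
    by_cases hl : ([] : List ℕ) ∈ A
    · rw [phi_off_mem hA h _ hl]; simp
    · rw [phi_nil, res_off A h _ hl]
  | cons j l =>
    change |kap τ (phi (res A f)) (phi (h - res A h)) (j :: l)
      - kap τ (phi (res A f)) (phi (h - res A h)) l| ≤ |h (j :: l)|
    by_cases hl : j :: l ∈ A
    · rw [kap_zero _ _ _ _ (phi_off_mem hA h _ hl),
        kap_zero _ _ _ _ (phi_off_mem hA h _ (hA j l hl))]
      simp
    · refine (abs_kap_sub_le hτ _ _ _ _ ?_).trans ?_
      · simp [res_not_mem hl]
      · rw [phi_cons, add_sub_cancel_right, res_off A h _ hl]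

lemma dd_kap_mem {A : Finset (List ℕ)} (hA : SuffClosed A) (τ : ℝ)
    (f h : List ℕ → ℝ) (l : List ℕ) (hl : l ∈ A) :
    dd (kap τ (phi (res A f)) (phi (h - res A h))) l = 0 := by
  cases l with
  | nil =>
    change kap τ (phi (res A f)) (phi (h - res A h)) [] = 0
    exact kap_zero _ _ _ _ (phi_off_mem hA h _ hl)
  | cons j l =>
    change kap τ (phi (res A f)) (phi (h - res A h)) (j :: l)
      - kap τ (phi (res A f)) (phi (h - res A h)) l = 0
    rw [kap_zero _ _ _ _ (phi_off_mem hA h _ hl),
        kap_zero _ _ _ _ (phi_off_mem hA h _ (hA j l hl)), sub_zero]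

end Vale.Agent.P069
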