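import Mathlib
import Vale.Agent.P069.Tree
import Vale.Agent.P069.Reflexive

/-!
# The spaces `Y n` and their `ℓ₂`-sum
-/

namespace Vale.Agent.P069

open scoped ENNReal

/-- the Hilbert space `ℓ₂(List ℕ)` -/
abbrev H : Type := lp (fun _ : List ℕ => ℝ) 2

/-- the space of bounded functions on the tree -/
abbrev Linf : Type := lp (fun _ : List ℕ => ℝ) ∞

lemma abs_le_norm_H (f : H) (l : List ℕ) : |f l| ≤ ‖f‖ :=
  lp.norm_apply_le_norm (by norm_num) f l

lemma abs_phi_le_H (f : H) (l : List ℕ) : |phi f l| ≤ (l.length + 1) * ‖f‖ :=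
  abs_phi_le (abs_le_norm_H f) l

/-- the truncated partial-sum map -/
noncomputable def lmap (n : ℕ) : H →ₗ[ℝ] Linf where
  toFun f := ⟨fun l => if l.length ≤ n then phi f l else 0, by
    apply memℓp_infty
    refine ⟨(n + 1) * ‖f‖, ?_⟩
    rintro _ ⟨l, rfl⟩
    dsimp only
    split_ifs with h
    · refine (abs_phi_le_H f l).trans ?_
      have : (l.length : ℝ) ≤ n := by exact_mod_cast h
      gcongr
    · simp only [norm_zero]; positivity⟩
  map_add' f g := by
    ext l
    simp only [lp.coeFn_add, Pi.add_apply]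
    split_ifs
    · exact phi_add _ _ _
    · simp
  map_smul' c f := by
    ext l
    simp only [lp.coeFn_smul, Pi.smul_apply, RingHom.id_apply, smul_eq_mul]
    split_ifs
    · exact phi_smul _ _ _
    · simp

lemma lmap_apply (n : ℕ) (f : H) (l : List ℕ) :
    lmap n f l = if l.length ≤ n then phi f l else 0 := rfl

/-- the graph map -/
noncomputable def gmap (n : ℕ) : H →ₗ[ℝ] H × Linf := LinearMap.prod LinearMap.id (lmap n)

lemma gmap_injective (n : ℕ) : Function.Injective (gmap n) := by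
  intro f g h
  exact (Prod.ext_iff.mp h).1

/-- `Y n` is `ℓ₂(List ℕ)` with the norm `max (‖f‖₂, sup_{|l| ≤ n} |phi f l|)`. -/
def Y (_n : ℕ) : Type := H

noncomputable instance (n : ℕ) : AddCommGroup (Y n) := inferInstanceAs (AddCommGroup H)
noncomputable instance (n : ℕ) : Module ℝ (Y n) := inferInstanceAs (Module ℝ H)
noncomputable instance (n : ℕ) : NormedAddCommGroup (Y n) :=
  NormedAddCommGroup.induced (Y n) (H × Linf) (gmap n) (gmap_injective n)
noncomputable instance (n : ℕ) : NormedSpace ℝ (Y n) :=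
  NormedSpace.induced ℝ (Y n) (H × Linf) (gmap n)

/-- the identity `Y n → H` -/
noncomputable def toH (n : ℕ) : Y n ≃ₗ[ℝ] H := LinearEquiv.refl ℝ H

lemma norm_Y (n : ℕ) (f : Y n) : ‖f‖ = max ‖toH n f‖ ‖lmap n (toH n f)‖ := rfl

lemma norm_toH_le (n : ℕ) (f : Y n) : ‖toH n f‖ ≤ ‖f‖ := by
  rw [norm_Y]; exact le_max_left _ _

lemma abs_phi_le_norm (n : ℕ) (f : Y n) (l : List ℕ) (hl : l.length ≤ n) :
    |phi (toH n f) l| ≤ ‖f‖ := by
  have h1 : ‖lmap n (toH n f) l‖ ≤ ‖lmap n (toH n f)‖ :=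
    lp.norm_apply_le_norm (by simp) _ l
  rw [lmap_apply, if_pos hl] at h1
  rw [norm_Y]
  exact h1.trans (le_max_right _ _)

lemma norm_Y_le (n : ℕ) (f : Y n) {C : ℝ} (hC : 0 ≤ C) (h1 : ‖toH n f‖ ≤ C)
    (h2 : ∀ l : List ℕ, l.length ≤ n → |phi (toH n f) l| ≤ C) : ‖f‖ ≤ C := by
  rw [norm_Y]
  refine max_le h1 (lp.norm_le_of_forall_le hC fun l => ?_)
  rw [lmap_apply]
  split_ifs with h
  · exact h2 l h
  · simpa using hC

lemma norm_Y_le_H (n : ℕ) (f : Y n) : ‖f‖ ≤ (n + 1) * ‖toH n f‖ := by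
  apply norm_Y_le
  · positivity
  · have := norm_nonneg (toH n f)
    nlinarith [(Nat.cast_nonneg n : (0 : ℝ) ≤ n)]
  · intro l hl
    refine (abs_phi_le_H _ l).trans ?_
    have : (l.length : ℝ) ≤ n := by exact_mod_cast hl
    gcongr

/-- `Y n` is isomorphic to a Hilbert space -/
noncomputable def equivH (n : ℕ) : H ≃L[ℝ] Y n :=
  LinearEquiv.toContinuousLinearEquivOfBounds (toH n).symm (n + 1) 1
    (fun f => by simpa using norm_Y_le_H n ((toH n).symm f))
    (fun f => by simpa using norm_toH_le n f)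

lemma equivH_apply (n : ℕ) (f : H) : equivH n f = (toH n).symm f := rfl

lemma isReflexive_Y (n : ℕ) : IsReflexive (Y n) :=
  (isReflexive_of_innerProductSpace H).of_equiv (equivH n)

/-- The `ℓ₂`-sum of the spaces `Y n`. -/
abbrev W : Type := lp Y 2

lemma isReflexive_W : IsReflexive W := isReflexive_lp isReflexive_Y

/-- The counterexample. -/
abbrev X : Type := StrongDual ℝ W

lemma isReflexive_X : IsReflexive X := isReflexive_W.dual

end Vale.Agent.P069
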