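import Mathlib
import Vale.Agent.P069.Space

/-!
# Truncations and one-sided parts in the spaces `Y n`
-/

namespace Vale.Agent.P069

open scoped ENNReal

/-- the element of `H` with coordinates `k`, dominated by `h` -/
def mkH (h : H) (k : List ℕ → ℝ) (hk : ∀ l, |k l| ≤ |h l|) : H :=
  ⟨k, (lp.memℓp h).mono' hk⟩

@[simp] lemma coe_mkH (h : H) (k : List ℕ → ℝ) (hk : ∀ l, |k l| ≤ |h l|) :
    (mkH h k hk : List ℕ → ℝ) = k := rfl

lemma norm_mkH_le (h : H) (k : List ℕ → ℝ) (hk : ∀ l, |k l| ≤ |h l|) : ‖mkH h k hk‖ ≤ ‖h‖ :=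
  lp.norm_mono (by norm_num) hk

lemma abs_res_le (A : Finset (List ℕ)) (f : List ℕ → ℝ) (l : List ℕ) : |res A f l| ≤ |f l| := by
  by_cases h : l ∈ A
  · rw [res_mem h]
  · rw [res_not_mem h]; simp

/-- truncation in `H` -/
def resH (A : Finset (List ℕ)) (f : H) : H := mkH f (res A f) (abs_res_le A f)

@[simp] lemma coe_resH (A : Finset (List ℕ)) (f : H) : (resH A f : List ℕ → ℝ) = res A f := rfl

/-- truncation in `Y n` -/
noncomputable def resY (n : ℕ) (A : Finset (List ℕ)) (f : Y n) : Y n :=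
  (toH n).symm (resH A (toH n f))

@[simp] lemma toH_resY (n : ℕ) (A : Finset (List ℕ)) (f : Y n) :
    toH n (resY n A f) = resH A (toH n f) := rfl

lemma norm_resY_le (n : ℕ) {A : Finset (List ℕ)} (hA : SuffClosed A) (f : Y n) :
    ‖resY n A f‖ ≤ ‖f‖ := by
  apply norm_Y_le n _ (norm_nonneg f)
  · rw [toH_resY]
    exact (norm_mkH_le _ _ _).trans (norm_toH_le n f)
  · intro l hl
    rw [toH_resY, coe_resH]
    exact abs_phi_res_le hA _ n (norm_nonneg f) (fun l hl => abs_phi_le_norm n f l hl) l hl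

/-- the one-sided parts in `H` -/
noncomputable def kH (τ : ℝ) (hτ : |τ| = 1) (A : Finset (List ℕ)) (hA : SuffClosed A) (f h : H) :
    H :=
  mkH h (dd (kap τ (phi (res A f)) (phi (⇑h - res A h)))) (abs_dd_kap_le hA hτ f h)

lemma phi_kH (τ : ℝ) (hτ : |τ| = 1) (A : Finset (List ℕ)) (hA : SuffClosed A) (f h : H)
    (l : List ℕ) :
    phi (kH τ hτ A hA f h) l = kap τ (phi (res A f)) (phi (⇑h - res A h)) l := phi_dd _ _

/-- the one-sided parts in `Y n` -/
noncomputable def kY (n : ℕ) (τ : ℝ) (hτ : |τ| = 1) (A : Finset (List ℕ)) (hA : SuffClosed A)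
    (f h : Y n) : Y n :=
  (toH n).symm (kH τ hτ A hA (toH n f) (toH n h))

@[simp] lemma toH_kY (n : ℕ) (τ : ℝ) (hτ : |τ| = 1) (A : Finset (List ℕ)) (hA : SuffClosed A)
    (f h : Y n) : toH n (kY n τ hτ A hA f h) = kH τ hτ A hA (toH n f) (toH n h) := rfl

lemma kH_mem (τ : ℝ) (hτ : |τ| = 1) (A : Finset (List ℕ)) (hA : SuffClosed A) (f h : H)
    (l : List ℕ) (hl : l ∈ A) : kH τ hτ A hA f h l = 0 :=
  dd_kap_mem hA τ f h l hl

lemma eq_of_phi_eq {f g : List ℕ → ℝ} (h : ∀ l, phi f l = phi g l) : f = g := by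
  funext l
  cases l with
  | nil => exact h []
  | cons j l =>
    have h1 := h (j :: l)
    simp only [phi_cons, h l] at h1
    linarith

lemma split_H (A : Finset (List ℕ)) (hA : SuffClosed A) (f h : H) :
    h - resH A h = - kH 1 (by norm_num) A hA f h + kH (-1) (by norm_num) A hA f h := by
  apply lp.ext
  apply eq_of_phi_eq
  intro l
  rw [lp.coeFn_sub, lp.coeFn_add, lp.coeFn_neg, phi_add, ← neg_one_smul ℝ, phi_smul, phi_kH,
    phi_kH, coe_resH]
  have := kap_sum (phi (res A f)) (phi (⇑h - res A h)) l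
  linarith

lemma split_Y (n : ℕ) (A : Finset (List ℕ)) (hA : SuffClosed A) (f h : Y n) :
    h - resY n A h
      = - kY n 1 (by norm_num) A hA f h + kY n (-1) (by norm_num) A hA f h := by
  apply (toH n).injective
  rw [map_sub, map_add, map_neg, toH_kY, toH_kY, toH_resY]
  exact split_H A hA _ _

lemma abs_phi_off_le (n : ℕ) {A : Finset (List ℕ)} (hA : SuffClosed A) (h : Y n) (l : List ℕ)
    (hl : l.length ≤ n) : |phi (⇑(toH n h) - res A (toH n h)) l| ≤ 2 * ‖h‖ := by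
  rw [phi_sub]
  have h1 := abs_phi_le_norm n h l hl
  have h2 := abs_phi_res_le hA (toH n h) n (norm_nonneg h)
    (fun l hl => abs_phi_le_norm n h l hl) l hl
  calc _ ≤ |phi (toH n h) l| + |phi (res A (toH n h)) l| := abs_sub _ _
    _ ≤ _ := by linarith

lemma norm_kY_le (n : ℕ) (τ : ℝ) (hτ : |τ| = 1) (A : Finset (List ℕ)) (hA : SuffClosed A)
    (f h : Y n) : ‖kY n τ hτ A hA f h‖ ≤ 2 * ‖h‖ := by
  apply norm_Y_le n _ (by positivity)
  · rw [toH_kY]
    have h1 : ‖kH τ hτ A hA (toH n f) (toH n h)‖ ≤ ‖toH n h‖ := norm_mkH_le _ _ _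
    have h2 := norm_toH_le n h
    linarith [norm_nonneg h]
  · intro l hl
    rw [toH_kY, phi_kH]
    exact (abs_kap_le hτ _ _ _).trans (abs_phi_off_le n hA h l hl)

lemma inner_resH_kH (τ : ℝ) (hτ : |τ| = 1) (A : Finset (List ℕ)) (hA : SuffClosed A) (f h f' : H) :
    inner ℝ (resH A f') (kH τ hτ A hA f h) = 0 := by
  rw [lp.inner_eq_tsum]
  have : ∀ l, inner ℝ (resH A f' l) (kH τ hτ A hA f h l) = 0 := by
    intro l
    by_cases hl : l ∈ A
    · rw [kH_mem τ hτ A hA f h l hl]; simp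
    · rw [coe_resH, res_not_mem hl]; simp
  rw [tsum_congr this, tsum_zero]

/-- The key component estimate. -/
lemma norm_comb_sq_le (n : ℕ) (τ : ℝ) (hτ : |τ| = 1) (A : Finset (List ℕ)) (hA : SuffClosed A)
    (f h : Y n) (α s : ℝ) (hα : 0 ≤ α) (hs : 0 ≤ s) :
    ‖α • resY n A f + s • kY n τ hτ A hA f h‖ ^ 2 ≤ α ^ 2 * ‖f‖ ^ 2 + 4 * s ^ 2 * ‖h‖ ^ 2 := by
  set C : ℝ := Real.sqrt (α ^ 2 * ‖f‖ ^ 2 + 4 * s ^ 2 * ‖h‖ ^ 2) with hC
  have hC0 : 0 ≤ C := Real.sqrt_nonneg _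
  have hC2 : C ^ 2 = α ^ 2 * ‖f‖ ^ 2 + 4 * s ^ 2 * ‖h‖ ^ 2 := Real.sq_sqrt (by positivity)
  have hCf : α * ‖f‖ ≤ C := by
    apply Real.le_sqrt_of_sq_le
    nlinarith [sq_nonneg (s * ‖h‖)]
  have hCh : s * (2 * ‖h‖) ≤ C := by
    apply Real.le_sqrt_of_sq_le
    nlinarith [sq_nonneg (α * ‖f‖)]
  have key : ‖α • resY n A f + s • kY n τ hτ A hA f h‖ ≤ C := by
    apply norm_Y_le n _ hC0
    · rw [map_add, map_smul, map_smul, toH_resY, toH_kY]
      apply Real.le_sqrt_of_sq_le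
      rw [norm_add_sq_real, inner_smul_left, inner_smul_right, inner_resH_kH, norm_smul, norm_smul]
      have h1 : ‖resH A (toH n f)‖ ≤ ‖f‖ := (norm_mkH_le _ _ _).trans (norm_toH_le n f)
      have h2 : ‖kH τ hτ A hA (toH n f) (toH n h)‖ ≤ ‖h‖ :=
        (norm_mkH_le _ _ _).trans (norm_toH_le n h)
      have h3 : ‖resH A (toH n f)‖ ^ 2 ≤ ‖f‖ ^ 2 := by gcongr
      have h4 : ‖kH τ hτ A hA (toH n f) (toH n h)‖ ^ 2 ≤ ‖h‖ ^ 2 := by gcongr
      rw [mul_pow, mul_pow, Real.norm_of_nonneg hα, Real.norm_of_nonneg hs]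
      simp only [mul_zero, add_zero]
      have h5 : α ^ 2 * ‖resH A (toH n f)‖ ^ 2 ≤ α ^ 2 * ‖f‖ ^ 2 := by gcongr
      have h6 : s ^ 2 * ‖kH τ hτ A hA (toH n f) (toH n h)‖ ^ 2 ≤ s ^ 2 * ‖h‖ ^ 2 := by gcongr
      nlinarith [sq_nonneg (s * ‖h‖)]
    · intro l hl
      rw [map_add, map_smul, map_smul, toH_resY, toH_kY, lp.coeFn_add, lp.coeFn_smul,
        lp.coeFn_smul, phi_add, phi_smul, phi_smul, phi_kH, coe_resH]
      have h1 : |phi (res A (toH n f)) l| ≤ ‖f‖ :=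
        abs_phi_res_le hA (toH n f) n (norm_nonneg f) (fun l hl => abs_phi_le_norm n f l hl) l hl
      have h2 : |kap τ (phi (res A (toH n f))) (phi (⇑(toH n h) - res A (toH n h))) l|
          ≤ 2 * ‖h‖ := (abs_kap_le hτ _ _ _).trans (abs_phi_off_le n hA h l hl)
      have h3 := kap_mul_nonpos τ (phi (res A (toH n f))) (phi (⇑(toH n h) - res A (toH n h))) l
      set a := phi (res A (toH n f)) l
      set b := kap τ (phi (res A (toH n f))) (phi (⇑(toH n h) - res A (toH n h))) l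
      have h4 : α * |a| ≤ C := (mul_le_mul_of_nonneg_left h1 hα).trans hCf
      have h5 : s * |b| ≤ C := (mul_le_mul_of_nonneg_left h2 hs).trans hCh
      have ha := abs_le.mp (show |α * a| ≤ C by rwa [abs_mul, abs_of_nonneg hα])
      have hb := abs_le.mp (show |s * b| ≤ C by rwa [abs_mul, abs_of_nonneg hs])
      have hab : (α * a) * (s * b) ≤ 0 := by
        have : (α * a) * (s * b) = (α * s) * (a * b) := by ring
        rw [this]
        exact mul_nonpos_of_nonneg_of_nonpos (mul_nonneg hα hs) h3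
      rw [abs_le]
      rcases le_total 0 (α * a) with h6 | h6 <;> rcases le_total 0 (s * b) with h7 | h7
      · rcases mul_eq_zero.mp (le_antisymm hab (mul_nonneg h6 h7)) with h8 | h8
        · rw [h8]; constructor <;> linarith
        · rw [h8]; constructor <;> linarith
      · constructor <;> linarith
      · constructor <;> linarith
      · rcases mul_eq_zero.mp (le_antisymm hab (mul_nonneg_of_nonpos_of_nonpos h6 h7)) with h8 | h8
        · rw [h8]; constructor <;> linarith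
        · rw [h8]; constructor <;> linarith
  calc _ ≤ C ^ 2 := by gcongr
    _ = _ := hC2

end Vale.Agent.P069
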