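import Mathlib
import Vale.Agent.P069.Component

/-!
# Truncations and one-sided parts in the `ℓ₂`-sum, tails of functionals
-/

namespace Vale.Agent.P069

open scoped ENNReal

section general

variable {E : ℕ → Type*} [∀ n, NormedAddCommGroup (E n)] [∀ n, NormedSpace ℝ (E n)]

lemma hasSum_coordFun_comp (ξ : StrongDual ℝ (lp E 2)) :
    HasSum (fun n => (coordFun ξ n).comp (lp.evalCLM ℝ E 2 n)) ξ := by
  classical
  let B : ∀ n, StrongDual ℝ (E n) →L[ℝ] E n →L[ℝ] ℝ := fun n => ContinuousLinearMap.id ℝ _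
  have hB : ∀ n, ‖B n‖ ≤ ((1 : NNReal) : ℝ) := fun n => by
    simpa using (ContinuousLinearMap.norm_id_le (𝕜 := ℝ) (E := StrongDual ℝ (E n)))
  let J : lp (fun n => StrongDual ℝ (E n)) 2 →L[ℝ] lp E 2 →L[ℝ] ℝ :=
    lp.dualPairing 2 2 (H := ℝ) B hB
  have hJ : ∀ (ξ : lp (fun n => StrongDual ℝ (E n)) 2) (x : lp E 2),
      J ξ x = ∑' n, (ξ n) (x n) := fun ξ x => lp.dualPairing_apply B hB ξ x
  have hJsurj : J ⟨fun n => coordFun ξ n, memℓp_coordFun ξ⟩ = ξ := by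
    ext x
    rw [hJ]
    exact (hasSum_coordFun ξ x).tsum_eq
  have h1 := (lp.hasSum_single (E := fun n => StrongDual ℝ (E n)) (p := 2) (by norm_num)
    ⟨fun n => coordFun ξ n, memℓp_coordFun ξ⟩).mapL J
  rw [hJsurj] at h1
  convert h1 using 1
  funext n
  ext x
  rw [hJ, tsum_eq_single n]
  · simp only [lp.single_apply_self]
    rfl
  · intro m hm
    rw [lp.single_apply_ne _ _ _ hm]
    rfl

end general

/-- Every finite set of nodes is contained in a finite suffix-closed one. -/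
lemma exists_suffClosed (s : Finset (List ℕ)) : ∃ A : Finset (List ℕ), s ⊆ A ∧ SuffClosed A := by
  refine ⟨s.biUnion fun l => l.tails.toFinset, ?_, ?_⟩
  · intro l hl
    rw [Finset.mem_biUnion]
    exact ⟨l, hl, by simp⟩
  · intro j l hl
    rw [Finset.mem_biUnion] at hl ⊢
    obtain ⟨m, hm, hl⟩ := hl
    refine ⟨m, hm, ?_⟩
    simp only [List.mem_toFinset, List.mem_tails] at hl ⊢
    exact (List.suffix_cons j l).trans hl

lemma exists_tail_Y (n : ℕ) (ζ : StrongDual ℝ (Y n)) {δ : ℝ} (hδ : 0 < δ) :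
    ∃ A : Finset (List ℕ), SuffClosed A ∧
      ∀ κ : Y n, (∀ l ∈ A, toH n κ l = 0) → |ζ κ| ≤ δ * ‖κ‖ := by
  let ζ' : StrongDual ℝ H := ζ.comp (equivH n : H →L[ℝ] Y n)
  let u : H := (InnerProductSpace.toDual ℝ H).symm ζ'
  have hu : ∀ f : H, inner ℝ u f = ζ ((toH n).symm f) := by
    intro f
    rw [InnerProductSpace.toDual_symm_apply]
    rfl
  have h1 := lp.hasSum_single (p := 2) (by norm_num) u
  rw [HasSum, SummationFilter.unconditional_filter, Metric.tendsto_atTop] at h1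
  obtain ⟨s, hs⟩ := h1 δ hδ
  obtain ⟨A, hsA, hA⟩ := exists_suffClosed s
  refine ⟨A, hA, ?_⟩
  intro κ hκ
  have h2 := hs s le_rfl
  rw [dist_comm, dist_eq_norm] at h2
  have h3 : ζ κ = inner ℝ u (toH n κ) := by rw [hu]; rfl
  have h4 : inner ℝ (∑ l ∈ s, lp.single 2 l (u l)) (toH n κ) = 0 := by
    rw [sum_inner]
    apply Finset.sum_eq_zero
    intro l hl
    rw [lp.inner_single_left, hκ l (hsA hl), inner_zero_right]
  have h5 : ζ κ = inner ℝ (u - ∑ l ∈ s, lp.single 2 l (u l)) (toH n κ) := by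
    rw [inner_sub_left, h4, h3, sub_zero]
  rw [h5]
  calc _ ≤ ‖u - ∑ l ∈ s, lp.single 2 l (u l)‖ * ‖toH n κ‖ := abs_real_inner_le_norm _ _
    _ ≤ δ * ‖κ‖ := by
      gcongr
      exact norm_toH_le n κ

/-- A finite suffix-closed set of coordinates in the `ℓ₂`-sum. -/
structure FinSet where
  A : ℕ → Finset (List ℕ)
  closed : ∀ n, SuffClosed (A n)
  N : ℕ
  empty : ∀ n, N ≤ n → A n = ∅

lemma exists_tail (x : X) {ε : ℝ} (hε : 0 < ε) :
    ∃ S : FinSet, ∀ κ : W, (∀ n, ∀ l ∈ S.A n, toH n (κ n) l = 0) → |x κ| ≤ ε * ‖κ‖ := by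
  have h1 := (hasSum_coordFun_comp x).tendsto_sum_nat
  rw [Metric.tendsto_atTop] at h1
  obtain ⟨N, hN⟩ := h1 (ε / 2) (by linarith)
  have h2 := hN N le_rfl
  rw [dist_comm, dist_eq_norm] at h2
  have hδ : 0 < ε / (2 * (N + 1)) := by positivity
  choose A hA hA2 using fun n => exists_tail_Y n (coordFun x n) hδ
  refine ⟨⟨fun n => if n < N then A n else ∅, ?_, N, ?_⟩, ?_⟩
  · intro n
    by_cases h : n < N
    · simp only [h, if_true]; exact hA n
    · simp only [h, if_false]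
      intro j l hl
      simp at hl
  · intro n hn
    simp [not_lt.mpr hn]
  · intro κ hκ
    have h3 : |∑ n ∈ Finset.range N, coordFun x n (κ n)| ≤ ε / 2 * ‖κ‖ := by
      calc _ ≤ ∑ n ∈ Finset.range N, |coordFun x n (κ n)| := Finset.abs_sum_le_sum_abs _ _
        _ ≤ ∑ n ∈ Finset.range N, ε / (2 * (N + 1)) * ‖κ‖ := by
          apply Finset.sum_le_sum
          intro n hn
          have hn' : n < N := Finset.mem_range.mp hn
          refine (hA2 n (κ n) ?_).trans ?_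
          · intro l hl
            apply hκ n l
            simp [hn', hl]
          · gcongr
            exact lp.norm_apply_le_norm (by norm_num) κ n
        _ = N * (ε / (2 * (N + 1)) * ‖κ‖) := by simp
        _ ≤ (N + 1) * (ε / (2 * (N + 1)) * ‖κ‖) := by
          gcongr
          linarith
        _ = ε / 2 * ‖κ‖ := by field_simp
    have h4 : |(x - ∑ n ∈ Finset.range N, (coordFun x n).comp (lp.evalCLM ℝ Y 2 n)) κ|
        ≤ ε / 2 * ‖κ‖ := by
      refine ((x - _).le_opNorm κ).trans ?_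
      gcongr
    have h5 : (x - ∑ n ∈ Finset.range N, (coordFun x n).comp (lp.evalCLM ℝ Y 2 n)) κ
        = x κ - ∑ n ∈ Finset.range N, coordFun x n (κ n) := by
      rw [ContinuousLinearMap.sub_apply, ContinuousLinearMap.sum_apply]
      rfl
    rw [h5] at h4
    have h6 : x κ = (x κ - ∑ n ∈ Finset.range N, coordFun x n (κ n))
        + ∑ n ∈ Finset.range N, coordFun x n (κ n) := by ring
    rw [h6]
    refine (abs_add_le _ _).trans ?_
    linarith

/-- truncation in the sum -/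
noncomputable def resW (S : FinSet) (f : W) : W :=
  ⟨fun n => resY n (S.A n) (f n), (lp.memℓp f).mono' fun n => norm_resY_le n (S.closed n) (f n)⟩

lemma resW_apply (S : FinSet) (f : W) (n : ℕ) : resW S f n = resY n (S.A n) (f n) := rfl

lemma norm_resW_le (S : FinSet) (f : W) : ‖resW S f‖ ≤ ‖f‖ :=
  lp.norm_mono (by norm_num) fun n => norm_resY_le n (S.closed n) (f n)

lemma norm_kY_le' (n : ℕ) (τ : ℝ) (hτ : |τ| = 1) (A : Finset (List ℕ)) (hA : SuffClosed A)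
    (f : Y n) (h : W) : ‖kY n τ hτ A hA f (h n)‖ ≤ ‖((2 : ℝ) • h : W) n‖ := by
  rw [lp.coeFn_smul, Pi.smul_apply, norm_smul]
  simpa using norm_kY_le n τ hτ A hA f (h n)

/-- one-sided parts in the sum -/
noncomputable def kW (τ : ℝ) (hτ : |τ| = 1) (S : FinSet) (f h : W) : W :=
  ⟨fun n => kY n τ hτ (S.A n) (S.closed n) (f n) (h n),
    (lp.memℓp ((2 : ℝ) • h : W)).mono' fun n => norm_kY_le' n τ hτ (S.A n) (S.closed n) (f n) h⟩

lemma kW_apply (τ : ℝ) (hτ : |τ| = 1) (S : FinSet) (f h : W) (n : ℕ) :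
    kW τ hτ S f h n = kY n τ hτ (S.A n) (S.closed n) (f n) (h n) := rfl

lemma norm_kW_le (τ : ℝ) (hτ : |τ| = 1) (S : FinSet) (f h : W) : ‖kW τ hτ S f h‖ ≤ 2 * ‖h‖ := by
  have h1 : ‖kW τ hτ S f h‖ ≤ ‖((2 : ℝ) • h : W)‖ :=
    lp.norm_mono (by norm_num) fun n => norm_kY_le' n τ hτ (S.A n) (S.closed n) (f n) h
  rw [norm_smul] at h1
  simpa using h1

lemma split_W (S : FinSet) (f h : W) :
    h - resW S h = - kW 1 (by norm_num) S f h + kW (-1) (by norm_num) S f h := by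
  apply lp.ext
  funext n
  exact split_Y n (S.A n) (S.closed n) (f n) (h n)

lemma kW_mem (τ : ℝ) (hτ : |τ| = 1) (S : FinSet) (f h : W) (n : ℕ) (l : List ℕ)
    (hl : l ∈ S.A n) : toH n (kW τ hτ S f h n) l = 0 := by
  rw [kW_apply, toH_kY]
  exact kH_mem τ hτ _ _ _ _ l hl

lemma off_mem (S : FinSet) (f : W) (n : ℕ) (l : List ℕ)
    (hl : l ∈ S.A n) : toH n ((f - resW S f) n) l = 0 := by
  change toH n (f n - resY n (S.A n) (f n)) l = 0
  rw [map_sub, toH_resY, lp.coeFn_sub, Pi.sub_apply, coe_resH, res_mem hl, sub_self]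

/-- The key estimate in the sum. -/
lemma norm_comb_W_le (τ : ℝ) (hτ : |τ| = 1) (S : FinSet) (f h : W) (α s : ℝ)
    (hα : 0 ≤ α) (hs : 0 ≤ s) (hf : ‖f‖ ≤ 1) (hh : ‖h‖ ≤ 1) (hαs : α ^ 2 + 4 * s ^ 2 ≤ 1) :
    ‖α • resW S f + s • kW τ hτ S f h‖ ≤ 1 := by
  apply lp.norm_le_of_forall_sum_le (by norm_num) zero_le_one
  intro t
  have h1 : ∑ n ∈ t, ‖f n‖ ^ 2 ≤ 1 := by
    have := lp.sum_rpow_le_norm_rpow (p := 2) (by norm_num) f t
    simp only [ENNReal.toReal_ofNat, Real.rpow_ofNat] at this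
    exact this.trans (by nlinarith [norm_nonneg f])
  have h2 : ∑ n ∈ t, ‖h n‖ ^ 2 ≤ 1 := by
    have := lp.sum_rpow_le_norm_rpow (p := 2) (by norm_num) h t
    simp only [ENNReal.toReal_ofNat, Real.rpow_ofNat] at this
    exact this.trans (by nlinarith [norm_nonneg h])
  simp only [ENNReal.toReal_ofNat, Real.rpow_ofNat, one_pow]
  calc ∑ n ∈ t, ‖(α • resW S f + s • kW τ hτ S f h : W) n‖ ^ 2
      ≤ ∑ n ∈ t, (α ^ 2 * ‖f n‖ ^ 2 + 4 * s ^ 2 * ‖h n‖ ^ 2) := by
        apply Finset.sum_le_sum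
        intro n _
        exact norm_comb_sq_le n τ hτ (S.A n) (S.closed n) (f n) (h n) α s hα hs
    _ = α ^ 2 * ∑ n ∈ t, ‖f n‖ ^ 2 + 4 * s ^ 2 * ∑ n ∈ t, ‖h n‖ ^ 2 := by
        rw [Finset.sum_add_distrib, Finset.mul_sum, Finset.mul_sum]
    _ ≤ α ^ 2 * 1 + 4 * s ^ 2 * 1 := by gcongr
    _ ≤ 1 := by linarith

end Vale.Agent.P069
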