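import Mathlib
import Vale.Agent.P069.Defs
import Vale.Agent.P069.Sum

/-!
# The norm of `X` is asymptotically midpoint uniformly convex
-/

namespace Vale.Agent.P069

open scoped ENNReal

/-- the unit vectors of `W` -/
noncomputable def del (n : ℕ) (l : List ℕ) : W :=
  lp.singleContinuousLinearMap ℝ Y 2 n ((toH n).symm (lp.single 2 l 1))

lemma resH_eq_sum (A : Finset (List ℕ)) (f : H) :
    resH A f = ∑ l ∈ A, f l • (lp.single 2 l 1 : H) := by
  apply lp.ext
  rw [lp.coeFn_sum]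
  funext m
  rw [Finset.sum_apply, coe_resH]
  simp only [lp.coeFn_smul, Pi.smul_apply, lp.single_apply, smul_eq_mul]
  by_cases hm : m ∈ A
  · rw [res_mem hm, Finset.sum_eq_single m]
    · simp
    · intro l _ hlm
      rw [Pi.single_eq_of_ne (Ne.symm hlm), mul_zero]
    · intro h; exact absurd hm h
  · rw [res_not_mem hm]
    symm
    apply Finset.sum_eq_zero
    intro l hl
    have : m ≠ l := by rintro rfl; exact hm hl
    rw [Pi.single_eq_of_ne this, mul_zero]

lemma resY_eq_sum (n : ℕ) (A : Finset (List ℕ)) (f : Y n) :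
    resY n A f = ∑ l ∈ A, (toH n f) l • (toH n).symm (lp.single 2 l 1) := by
  apply (toH n).injective
  rw [toH_resY, resH_eq_sum, map_sum]
  simp

lemma resW_eq_sum (S : FinSet) (f : W) :
    resW S f = ∑ n ∈ Finset.range S.N, ∑ l ∈ S.A n, (toH n (f n)) l • del n l := by
  have h1 : ∀ n, ∑ l ∈ S.A n, (toH n (f n)) l • del n l = lp.single 2 n (resY n (S.A n) (f n)) := by
    intro n
    rw [resY_eq_sum, ← lp.singleContinuousLinearMap_apply (𝕜 := ℝ), map_sum]
    simp only [map_smul]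
    rfl
  simp only [h1]
  apply lp.ext
  rw [lp.coeFn_sum]
  funext n
  rw [Finset.sum_apply]
  simp only [lp.single_apply]
  rw [Finset.sum_pi_single, resW_apply]
  split_ifs with h
  · rfl
  · have h2 : S.A n = ∅ := S.empty n (by simpa using h)
    rw [resY_eq_sum, h2, Finset.sum_empty]

/-- the index set of a finite set of coordinates -/
abbrev FinSet.idx (S : FinSet) : Type := (Finset.range S.N).sigma S.A

/-- the coordinate map -/
noncomputable def FinSet.T (S : FinSet) : X →L[ℝ] (S.idx → ℝ) :=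
  ContinuousLinearMap.pi fun i =>
    NormedSpace.inclusionInDoubleDual ℝ W (del i.1.1 i.1.2)

lemma FinSet.T_apply (S : FinSet) (x : X) (i : S.idx) : S.T x i = x (del i.1.1 i.1.2) := rfl

/-- the functionals vanishing on a finite set of coordinates -/
noncomputable def FinSet.F (S : FinSet) : Submodule ℝ X := LinearMap.ker (S.T : X →ₗ[ℝ] (S.idx → ℝ))

lemma FinSet.F_mem_cof (S : FinSet) : S.F ∈ cof X := by
  refine ⟨S.T.isClosed_ker, ?_⟩
  exact Module.Finite.equiv (LinearMap.quotKerEquivRange (S.T : X →ₗ[ℝ] (S.idx → ℝ))).symm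

lemma FinSet.apply_resW (S : FinSet) {y : X} (hy : y ∈ S.F) (f : W) : y (resW S f) = 0 := by
  have h1 : ∀ n ∈ Finset.range S.N, ∀ l ∈ S.A n, y (del n l) = 0 := by
    intro n hn l hl
    have h2 : S.T y = 0 := hy
    have h3 := congrFun h2 ⟨⟨n, l⟩, Finset.mem_sigma.mpr ⟨hn, hl⟩⟩
    simpa [FinSet.T_apply] using h3
  rw [resW_eq_sum, map_sum]
  apply Finset.sum_eq_zero
  intro n hn
  rw [map_sum]
  apply Finset.sum_eq_zero
  intro l hl
  rw [map_smul, h1 n hn l hl, smul_zero]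

lemma amuc_arith {α ε s t m η a b c : ℝ} (hα0 : 0 ≤ α) (hα1 : α ≤ 1)
    (hαlow : 1 - 4 * s ^ 2 ≤ α) (hs : s = m / 16) (hm0 : 0 < m) (hm1 : m ≤ 1) (hmt : m ≤ t)
    (hε0 : 0 < ε) (hη : ε * (4 + t) = η) (ha : 1 - 3 * ε ≤ a) (hb : |b| ≤ 2 * ε)
    (hc : (1 - ε) / 2 ≤ c) : 1 + m ^ 2 / 64 - η ≤ α * a + s * b + t * (s * c) := by
  have hs0 : 0 < s := by rw [hs]; positivity
  have hs1 : s ≤ 1 / 16 := by rw [hs]; linarith
  have ht0 : 0 < t := lt_of_lt_of_le hm0 hmt
  have e1 : 1 - 4 * s ^ 2 - 3 * ε ≤ α * a := by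
    have h1 : α * (1 - 3 * ε) ≤ α * a := mul_le_mul_of_nonneg_left ha hα0
    have h2 : α * ε ≤ 1 * ε := mul_le_mul_of_nonneg_right hα1 hε0.le
    linarith
  have e2 : - ε ≤ s * b := by
    have h1 : -(2 * ε) ≤ b := (abs_le.mp hb).1
    have h2 : s * (-(2 * ε)) ≤ s * b := mul_le_mul_of_nonneg_left h1 hs0.le
    have h3 : s * ε ≤ 1 / 16 * ε := mul_le_mul_of_nonneg_right hs1 hε0.le
    linarith
  have e3 : t * (s * ((1 - ε) / 2)) ≤ t * (s * c) := by
    apply mul_le_mul_of_nonneg_left _ ht0.le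
    exact mul_le_mul_of_nonneg_left hc hs0.le
  have e4 : m ^ 2 / 32 ≤ t * s / 2 := by
    rw [hs]
    have : m * m ≤ t * m := mul_le_mul_of_nonneg_right hmt hm0.le
    linarith [sq m]
  have e5 : 4 * s ^ 2 = m ^ 2 / 64 := by rw [hs]; ring
  have e6 : t * s * ε / 2 ≤ t * ε := by
    have h1 : 0 < t * ε := by positivity
    have h2 : s * (t * ε) ≤ 1 / 16 * (t * ε) := mul_le_mul_of_nonneg_right hs1 h1.le
    linarith
  have e7 : t * (s * ((1 - ε) / 2)) = t * s / 2 - t * s * ε / 2 := by ring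
  rw [← hη]
  linarith

/-- The asymptotic midpoint inequality. -/
theorem amuc_main (x : X) (hx : ‖x‖ = 1) (t : ℝ) (ht : 0 < t) (η : ℝ) (hη : 0 < η) :
    ∃ F ∈ cof X, ∀ y ∈ F, ‖y‖ = 1 →
      1 + (min t 1) ^ 2 / 64 - η ≤ max ‖x + t • y‖ ‖x - t • y‖ := by
  set ε : ℝ := η / (4 + t) with hε
  have hε0 : 0 < ε := by positivity
  obtain ⟨S, hS⟩ := exists_tail x hε0
  refine ⟨S.F, S.F_mem_cof, ?_⟩
  intro y hy hy1
  set m : ℝ := min t 1 with hm
  have hm0 : 0 < m := lt_min ht one_pos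
  have hm1 : m ≤ 1 := min_le_right _ _
  have hmt : m ≤ t := min_le_left _ _
  set s : ℝ := m / 16 with hs
  have hs0 : 0 < s := by positivity
  have hs1 : s ≤ 1 / 16 := by rw [hs]; linarith
  have h4s : 0 ≤ 1 - 4 * s ^ 2 := by nlinarith
  set α : ℝ := Real.sqrt (1 - 4 * s ^ 2) with hα
  have hα0 : 0 ≤ α := Real.sqrt_nonneg _
  have hα2 : α ^ 2 = 1 - 4 * s ^ 2 := Real.sq_sqrt h4s
  have hα1 : α ≤ 1 := by
    rw [hα]
    apply Real.sqrt_le_one.mpr
    nlinarith
  have hαlow : 1 - 4 * s ^ 2 ≤ α := by nlinarith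
  obtain ⟨f, hf1, hf2⟩ := exists_near x hε0
  obtain ⟨h, hh1, hh2⟩ := exists_near y hε0
  rw [hx, mul_one] at hf2
  rw [hy1, mul_one] at hh2
  -- the value of `x` at the truncation of `f`
  have hxf : 1 - 3 * ε ≤ x (resW S f) := by
    have h1 := hS (f - resW S f) (fun n l hl => off_mem S f n l hl)
    have h2 : ‖f - resW S f‖ ≤ 2 := by
      calc _ ≤ ‖f‖ + ‖resW S f‖ := norm_sub_le _ _
        _ ≤ 1 + 1 := add_le_add hf1 ((norm_resW_le S f).trans hf1)
        _ = 2 := by norm_num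
    have h3 : x (f - resW S f) ≤ 2 * ε := by
      calc _ ≤ |x (f - resW S f)| := le_abs_self _
        _ ≤ ε * ‖f - resW S f‖ := h1
        _ ≤ ε * 2 := by gcongr
        _ = 2 * ε := by ring
    rw [map_sub] at h3
    linarith
  -- one of the two parts is seen by `y`
  have hyk : ∃ (τ : ℝ) (hτ : |τ| = 1), (1 - ε) / 2 ≤ |y (kW τ hτ S f h)| := by
    by_contra hcon
    push Not at hcon
    have h1 := hcon 1 (by norm_num)
    have h2 := hcon (-1) (by norm_num)
    have h3 : y h = y (h - resW S h) := by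
      rw [map_sub, S.apply_resW hy, sub_zero]
    rw [split_W S f h, map_add, map_neg] at h3
    have h4 : |y h| ≤ |y (kW 1 (by norm_num) S f h)| + |y (kW (-1) (by norm_num) S f h)| := by
      rw [h3]
      refine (abs_add_le _ _).trans ?_
      rw [abs_neg]
    have h5 : y h ≤ |y h| := le_abs_self _
    linarith
  obtain ⟨τ, hτ, hyk⟩ := hyk
  set k := kW τ hτ S f h with hk
  have hxk : |x k| ≤ 2 * ε := by
    have h1 := hS k (fun n l hl => kW_mem τ hτ S f h n l hl)
    have h2 : ‖k‖ ≤ 2 := (norm_kW_le τ hτ S f h).trans (by linarith)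
    calc _ ≤ ε * ‖k‖ := h1
      _ ≤ ε * 2 := by gcongr
      _ = 2 * ε := by ring
  have hg : ‖α • resW S f + s • k‖ ≤ 1 :=
    norm_comb_W_le τ hτ S f h α s hα0 hs0.le hf1 hh1 (by rw [hα2]; linarith)
  set g := α • resW S f + s • k with hgdef
  have hxg : x g = α * x (resW S f) + s * x k := by
    rw [hgdef, map_add, map_smul, map_smul, smul_eq_mul, smul_eq_mul]
  have hyg : y g = s * y k := by
    rw [hgdef, map_add, map_smul, map_smul, smul_eq_mul, smul_eq_mul, S.apply_resW hy, mul_zero,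
      zero_add]
  have hp : x g + t * y g ≤ ‖x + t • y‖ := by
    calc x g + t * y g = (x + t • y) g := rfl
      _ ≤ ‖(x + t • y) g‖ := le_abs_self _
      _ ≤ ‖x + t • y‖ * ‖g‖ := (x + t • y).le_opNorm g
      _ ≤ ‖x + t • y‖ * 1 := by gcongr
      _ = _ := mul_one _
  have hq : x g - t * y g ≤ ‖x - t • y‖ := by
    calc x g - t * y g = (x - t • y) g := rfl
      _ ≤ ‖(x - t • y) g‖ := le_abs_self _
      _ ≤ ‖x - t • y‖ * ‖g‖ := (x - t • y).le_opNorm g
      _ ≤ ‖x - t • y‖ * 1 := by gcongr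
      _ = _ := mul_one _
  have hpq : x g + t * (s * |y k|) ≤ max ‖x + t • y‖ ‖x - t • y‖ := by
    rcases le_total 0 (y k) with h0 | h0
    · rw [abs_of_nonneg h0, ← hyg]
      exact hp.trans (le_max_left _ _)
    · rw [abs_of_nonpos h0]
      refine le_trans ?_ (hq.trans (le_max_right _ _))
      rw [hyg]
      linarith
  refine le_trans ?_ hpq
  rw [hxg]
  have e7 : ε * (4 + t) = η := by
    rw [hε]; field_simp
  exact amuc_arith hα0 hα1 hαlow hs hm0 hm1 hmt hε0 e7 hxf hxk hyk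

end Vale.Agent.P069
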