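import Mathlib
import Vale.Agent.P069.Defs
import Vale.Agent.P069.Sum
import Vale.Agent.P069.Amuc

/-!
# `X` is not AUC renormable
-/

namespace Vale.Agent.P069

open scoped ENNReal Topology
open Filter

/-- the coordinate functionals on `W` -/
noncomputable def ev (n : ℕ) (l : List ℕ) : X :=
  LinearMap.mkContinuous
    { toFun := fun w : W => toH n (w n) l
      map_add' := by
        intro v w
        rw [lp.coeFn_add, Pi.add_apply, map_add, lp.coeFn_add, Pi.add_apply]
      map_smul' := by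
        intro c w
        rw [lp.coeFn_smul, Pi.smul_apply, map_smul, lp.coeFn_smul, Pi.smul_apply]
        rfl } 1
    (by
      intro w
      rw [one_mul]
      exact (abs_le_norm_H (toH n (w n)) l).trans
        ((norm_toH_le n (w n)).trans (lp.norm_apply_le_norm (by norm_num) w n)))

lemma ev_apply (n : ℕ) (l : List ℕ) (w : W) : ev n l w = toH n (w n) l := rfl

/-- the partial sums of coordinate functionals along a branch -/
noncomputable def Sf (n : ℕ) : List ℕ → X
  | [] => ev n []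
  | j :: l => ev n (j :: l) + Sf n l

lemma Sf_apply (n : ℕ) (l : List ℕ) (w : W) : Sf n l w = phi (toH n (w n)) l := by
  induction l with
  | nil => rfl
  | cons j l ih =>
    change ev n (j :: l) w + Sf n l w = _
    rw [ih]
    rfl

lemma norm_Sf_le (n : ℕ) (l : List ℕ) (hl : l.length ≤ n) : ‖Sf n l‖ ≤ 1 := by
  apply ContinuousLinearMap.opNorm_le_bound _ zero_le_one
  intro w
  rw [one_mul, Sf_apply]
  exact (abs_phi_le_norm n (w n) l hl).trans (lp.norm_apply_le_norm (by norm_num) w n)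

lemma phi_single_of_length_lt (l m : List ℕ) (h : m.length < l.length) :
    phi (Pi.single l (1 : ℝ)) m = 0 := by
  induction m with
  | nil =>
    have : ([] : List ℕ) ≠ l := by rintro rfl; simp at h
    rw [phi_nil, Pi.single_eq_of_ne this]
  | cons j m ih =>
    have : j :: m ≠ l := by rintro rfl; simp at h
    rw [phi_cons, Pi.single_eq_of_ne this, ih (by simp only [List.length_cons] at h; omega)]
    simp

lemma abs_phi_single_le (l m : List ℕ) : |phi (Pi.single l (1 : ℝ)) m| ≤ 1 := by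
  induction m with
  | nil =>
    by_cases h : ([] : List ℕ) = l
    · subst h; simp
    · rw [phi_nil, Pi.single_eq_of_ne h]; simp
  | cons j m ih =>
    by_cases h : j :: m = l
    · subst h
      rw [phi_cons, phi_single_of_length_lt _ m (by simp)]
      simp
    · rw [phi_cons, Pi.single_eq_of_ne h, zero_add]
      exact ih

lemma norm_del_le (n : ℕ) (l : List ℕ) : ‖del n l‖ ≤ 1 := by
  have h0 : ‖del n l‖ = ‖(toH n).symm (lp.single 2 l 1)‖ :=
    lp.norm_single (E := Y) (p := 2) (by norm_num) n _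
  rw [h0]
  apply norm_Y_le n _ zero_le_one
  · rw [LinearEquiv.apply_symm_apply, lp.norm_single (by norm_num)]
    simp
  · intro m _
    rw [LinearEquiv.apply_symm_apply, lp.coeFn_single]
    exact abs_phi_single_le l m

lemma one_le_norm_ev (n : ℕ) (l : List ℕ) : 1 ≤ ‖ev n l‖ := by
  have h1 : ev n l (del n l) = 1 := by
    rw [ev_apply]
    change toH n ((lp.single 2 n ((toH n).symm (lp.single 2 l 1)) : W) n) l = 1
    rw [lp.single_apply_self, LinearEquiv.apply_symm_apply, lp.single_apply_self]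
  calc (1 : ℝ) = ‖ev n l (del n l)‖ := by rw [h1]; simp
    _ ≤ ‖ev n l‖ * ‖del n l‖ := (ev n l).le_opNorm _
    _ ≤ ‖ev n l‖ * 1 := by gcongr; exact norm_del_le n l
    _ = _ := mul_one _

lemma tendsto_ev (n : ℕ) (l : List ℕ) (ψ : StrongDual ℝ X) :
    Tendsto (fun j : ℕ => ψ (ev n (j :: l))) atTop (𝓝 0) := by
  obtain ⟨w, rfl⟩ := isReflexive_W ψ
  simp only [NormedSpace.dual_def, ev_apply]
  have h1 : Summable fun m : List ℕ => ‖toH n (w n) m‖ ^ (2 : ℝ≥0∞).toReal :=
    (lp.memℓp (toH n (w n))).summable (by norm_num)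
  have h2 := h1.tendsto_cofinite_zero
  have hinj : Function.Injective (fun j : ℕ => j :: l) := by
    intro i j h
    simpa using h
  have h3 := h2.comp (hinj.tendsto_cofinite)
  rw [Nat.cofinite_eq_atTop] at h3
  have h4 : Tendsto (fun j : ℕ => (toH n (w n) (j :: l)) ^ 2) atTop (𝓝 0) := by
    refine h3.congr ?_
    intro j
    simp
  have h5 := h4.sqrt
  simp only [Real.sqrt_zero, Real.sqrt_sq_eq_abs] at h5
  exact (tendsto_zero_iff_abs_tendsto_zero _).mpr h5

/-- Weakly null sequences are asymptotically inside every subspace of `cof`. -/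
lemma eventually_near {V : Type*} [NormedAddCommGroup V] [NormedSpace ℝ V] {F : Submodule ℝ V}
    (hF : F ∈ cof V) (e : ℕ → V) (he : ∀ ψ : StrongDual ℝ V, Tendsto (fun j => ψ (e j)) atTop (𝓝 0))
    {η : ℝ} (hη : 0 < η) : ∃ j, ∃ w ∈ F, ‖e j - w‖ < η := by
  have : IsClosed (F : Set V) := hF.1
  have : FiniteDimensional ℝ (V ⧸ F) := hF.2
  let b := Module.finBasis ℝ (V ⧸ F)
  have h1 : Tendsto (fun j => b.equivFunL (F.mkQL (e j))) atTop (𝓝 0) := by
    rw [tendsto_pi_nhds]
    intro i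
    exact he ((ContinuousLinearMap.proj (R := ℝ) (φ := fun _ : Fin _ => ℝ) i).comp
      ((b.equivFunL : (V ⧸ F) →L[ℝ] (Fin _ → ℝ)).comp F.mkQL))
  have h2 : Tendsto (fun j => F.mkQL (e j)) atTop (𝓝 0) := by
    have h2' := (b.equivFunL.symm.continuous.tendsto 0).comp h1
    rw [map_zero] at h2'
    refine h2'.congr fun j => ?_
    exact b.equivFunL.symm_apply_apply _
  have h3 : Tendsto (fun j => ‖F.mkQL (e j)‖) atTop (𝓝 0) := by
    simpa using h2.norm
  obtain ⟨j, hj⟩ := (h3.eventually (gt_mem_nhds (show (0 : ℝ) < η / 2 by linarith))).exists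
  obtain ⟨m, hm1, hm2⟩ := Submodule.Quotient.norm_mk_lt (F.mkQL (e j)) (show (0 : ℝ) < η / 2 by linarith)
  refine ⟨j, e j - m, ?_, ?_⟩
  · rw [← Submodule.Quotient.mk_eq_zero, Submodule.Quotient.mk_sub, hm1]
    simp
  · rw [sub_sub_cancel]
    linarith

/-- One asymptotic step in an AUC norm. -/
lemma auc_step {V : Type*} [NormedAddCommGroup V] [NormedSpace ℝ V] (N : Seminorm ℝ V)
    {τ : ℝ} (hτ : 0 < τ) (hN : 0 < aucModulus N τ) :
    ∃ δ : ℝ, 0 < δ ∧ ∀ x : V, 0 < N x → ∃ F ∈ cof V, ∀ w ∈ F, τ * N x ≤ N w →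
      N x * (1 + δ) ≤ N (x + w) := by
  obtain ⟨δ, hδ0, hδ⟩ := EReal.lt_iff_exists_real_btwn.mp hN
  have hδ0' : 0 < δ := by exact_mod_cast hδ0
  refine ⟨δ, hδ0', ?_⟩
  intro x hx
  set r := N x with hr
  have hxr : N (r⁻¹ • x) = 1 := by
    rw [map_smul_eq_mul, norm_inv, Real.norm_of_nonneg hx.le, ← hr, inv_mul_cancel₀ hx.ne']
  have h1 : (δ : EReal) < ⨆ (F : Submodule ℝ V) (_ : F ∈ cof V),
      ⨅ (y : V) (_ : y ∈ F ∧ N y = 1), ((N (r⁻¹ • x + τ • y) - 1 : ℝ) : EReal) := by
    refine lt_of_lt_of_le hδ ?_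
    unfold aucModulus
    exact iInf₂_le_of_le (r⁻¹ • x) hxr le_rfl
  obtain ⟨F, h2⟩ := lt_iSup_iff.mp h1
  obtain ⟨hF, h3⟩ := lt_iSup_iff.mp h2
  refine ⟨F, hF, ?_⟩
  intro w hw hτw
  set ρ := N w with hρ
  have hρ0 : 0 < ρ := lt_of_lt_of_le (by positivity) hτw
  have hy : N (ρ⁻¹ • w) = 1 := by
    rw [map_smul_eq_mul, norm_inv, Real.norm_of_nonneg hρ0.le, ← hρ, inv_mul_cancel₀ hρ0.ne']
  have h4 : δ < N (r⁻¹ • x + τ • ρ⁻¹ • w) - 1 := by
    have h5 := lt_of_lt_of_le h3 (iInf₂_le (ρ⁻¹ • w) ⟨F.smul_mem _ hw, hy⟩)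
    exact_mod_cast h5
  -- convexity
  set lam : ℝ := τ * r / ρ with hlam
  have hlam0 : 0 < lam := by positivity
  have hlam1 : lam ≤ 1 := by
    rw [hlam, div_le_one hρ0]
    exact hτw
  have h5 : r⁻¹ • x + τ • ρ⁻¹ • w = (1 - lam) • (r⁻¹ • x) + lam • (r⁻¹ • (x + w)) := by
    rw [smul_add, smul_add, sub_smul, one_smul]
    have : τ • ρ⁻¹ • w = lam • r⁻¹ • w := by
      rw [smul_smul, smul_smul, hlam]
      congr 1
      field_simp
    rw [this]
    abel
  have h6 : N (r⁻¹ • x + τ • ρ⁻¹ • w) ≤ (1 - lam) + lam * (r⁻¹ * N (x + w)) := by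
    rw [h5]
    refine (map_add_le_add N _ _).trans ?_
    rw [map_smul_eq_mul, map_smul_eq_mul N lam, map_smul_eq_mul N r⁻¹ (x + w), hxr,
      Real.norm_of_nonneg (by linarith : (0 : ℝ) ≤ 1 - lam), Real.norm_of_nonneg hlam0.le,
      norm_inv, Real.norm_of_nonneg hx.le, mul_one]
  have h7 : 1 + δ ≤ r⁻¹ * N (x + w) := by
    have h8 : δ < lam * (r⁻¹ * N (x + w) - 1) := by linarith
    have h9 : 0 < r⁻¹ * N (x + w) - 1 := by
      by_contra hcon
      push Not at hcon
      have := mul_nonpos_of_nonneg_of_nonpos hlam0.le hcon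
      linarith
    have h10 : lam * (r⁻¹ * N (x + w) - 1) ≤ 1 * (r⁻¹ * N (x + w) - 1) :=
      mul_le_mul_of_nonneg_right hlam1 h9.le
    linarith
  calc r * (1 + δ) ≤ r * (r⁻¹ * N (x + w)) := by gcongr
    _ = N (x + w) := by rw [← mul_assoc, mul_inv_cancel₀ hx.ne', one_mul]

theorem not_aucRenormable : ¬ AUCRenormable X := by
  rintro ⟨N, ⟨a, b, ha, hN⟩, hauc⟩
  have hev0 : 0 < ‖ev 0 []‖ := lt_of_lt_of_le one_pos (one_le_norm_ev 0 [])
  have hab : a ≤ b := by
    have h1 := (hN (ev 0 [])).1.trans (hN (ev 0 [])).2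
    exact le_of_mul_le_mul_right h1 hev0
  have hb : 0 < b := lt_of_lt_of_le ha hab
  set τ : ℝ := a / (2 * b) with hτ
  have hτ0 : 0 < τ := by positivity
  obtain ⟨δ, hδ, hstep⟩ := auc_step N hτ0 (hauc τ hτ0)
  have key : ∀ n k : ℕ, k ≤ n → ∃ l : List ℕ, l.length = k ∧ a * (1 + δ / 2) ^ k ≤ N (Sf n l) := by
    intro n k
    induction k with
    | zero =>
      intro _
      refine ⟨[], rfl, ?_⟩
      rw [pow_zero, mul_one]
      calc a = a * 1 := (mul_one a).symm
        _ ≤ a * ‖Sf n []‖ := by gcongr; exact one_le_norm_ev n []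
        _ ≤ _ := (hN _).1
    | succ k ih =>
      intro hk
      obtain ⟨l, hl, hNl⟩ := ih (by omega)
      have hpow : (1 : ℝ) ≤ (1 + δ / 2) ^ k := one_le_pow₀ (by linarith)
      have har : a ≤ N (Sf n l) := le_trans (by nlinarith) hNl
      have hrb : N (Sf n l) ≤ b := by
        calc N (Sf n l) ≤ b * ‖Sf n l‖ := (hN _).2
          _ ≤ b * 1 := by gcongr; exact norm_Sf_le n l (by omega)
          _ = b := mul_one b
      set r := N (Sf n l) with hr
      have hr0 : 0 < r := lt_of_lt_of_le ha har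
      obtain ⟨F, hF, hFw⟩ := hstep (Sf n l) hr0
      set η : ℝ := min (a / 2) (a * δ / 2) / b with hη
      have hη0 : 0 < η := by positivity
      obtain ⟨j, w, hw, hjw⟩ := eventually_near hF (fun j => ev n (j :: l)) (tendsto_ev n l) hη0
      have hbη : b * η = min (a / 2) (a * δ / 2) := by rw [hη]; field_simp
      have hd : N (ev n (j :: l) - w) ≤ min (a / 2) (a * δ / 2) := by
        calc N (ev n (j :: l) - w) ≤ b * ‖ev n (j :: l) - w‖ := (hN _).2
          _ ≤ b * η := by gcongr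
          _ = _ := hbη
      have hd1 : N (ev n (j :: l) - w) ≤ a / 2 := hd.trans (min_le_left _ _)
      have hd2 : N (ev n (j :: l) - w) ≤ a * δ / 2 := hd.trans (min_le_right _ _)
      have hev : a ≤ N (ev n (j :: l)) := by
        calc a = a * 1 := (mul_one a).symm
          _ ≤ a * ‖ev n (j :: l)‖ := by gcongr; exact one_le_norm_ev n _
          _ ≤ _ := (hN _).1
      have hw1 : N (ev n (j :: l)) ≤ N w + N (ev n (j :: l) - w) := by
        have := map_add_le_add N w (ev n (j :: l) - w)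
        rwa [add_sub_cancel] at this
      have hτr : τ * r ≤ N w := by
        have h1 : τ * r ≤ τ * b := by gcongr
        have h2 : τ * b = a / 2 := by rw [hτ]; field_simp
        linarith
      have h3 := hFw w hw hτr
      refine ⟨j :: l, by simp [hl], ?_⟩
      have h4 : Sf n (j :: l) = ev n (j :: l) + Sf n l := rfl
      have h5 : N (Sf n l + w) ≤ N (Sf n (j :: l)) + N (ev n (j :: l) - w) := by
        have h6 : Sf n l + w = Sf n (j :: l) + (-(ev n (j :: l) - w)) := by
          rw [h4]; abel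
        rw [h6]
        refine (map_add_le_add N _ _).trans ?_
        rw [map_neg_eq_map]
      have h6 : r * (1 + δ / 2) ≤ N (Sf n (j :: l)) := by
        have h7 : a * δ ≤ r * δ := by gcongr
        have h8 : r * (1 + δ) = r + r * δ := by ring
        have h9 : r * (1 + δ / 2) = r + r * δ / 2 := by ring
        rw [h9]
        rw [h8] at h3
        linarith
      calc a * (1 + δ / 2) ^ (k + 1) = a * (1 + δ / 2) ^ k * (1 + δ / 2) := by ring
        _ ≤ r * (1 + δ / 2) := by gcongr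
        _ ≤ _ := h6
  have hbd : ∀ n : ℕ, a * (1 + δ / 2) ^ n ≤ b := by
    intro n
    obtain ⟨l, hl, hNl⟩ := key n n le_rfl
    calc _ ≤ N (Sf n l) := hNl
      _ ≤ b * ‖Sf n l‖ := (hN _).2
      _ ≤ b * 1 := by gcongr; exact norm_Sf_le n l (by omega)
      _ = b := mul_one b
  have h1 : Tendsto (fun n : ℕ => (1 + δ / 2) ^ n) atTop atTop :=
    tendsto_pow_atTop_atTop_of_one_lt (by linarith)
  obtain ⟨n, hn⟩ := (h1.eventually (eventually_gt_atTop (b / a))).exists
  have h2 := hbd n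
  rw [div_lt_iff₀ ha] at hn
  linarith

end Vale.Agent.P069
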