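import Mathlib
import Vale.Agent.P069.Defs
import Vale.Agent.P069.Sum
import Vale.Agent.P069.Amuc
import Vale.Agent.P069.NotAuc

/-!
# Putting everything together
-/

namespace Vale.Agent.P069

open scoped ENNReal Topology
open Filter

lemma exists_span_near (x : X) {ε : ℝ} (hε : 0 < ε) :
    ∃ y ∈ Submodule.span ℝ (Set.range fun p : ℕ × List ℕ => ev p.1 p.2), ‖x - y‖ ≤ ε := by
  obtain ⟨S, hS⟩ := exists_tail x (show (0 : ℝ) < ε / 2 by linarith)
  refine ⟨∑ n ∈ Finset.range S.N, ∑ l ∈ S.A n, x (del n l) • ev n l, ?_, ?_⟩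
  · apply Submodule.sum_mem
    intro n _
    apply Submodule.sum_mem
    intro l _
    apply Submodule.smul_mem
    exact Submodule.subset_span ⟨(n, l), rfl⟩
  · apply ContinuousLinearMap.opNorm_le_bound _ hε.le
    intro w
    have h1 : (∑ n ∈ Finset.range S.N, ∑ l ∈ S.A n, x (del n l) • ev n l) w = x (resW S w) := by
      rw [resW_eq_sum, map_sum, sum_apply]
      apply Finset.sum_congr rfl
      intro n _
      rw [map_sum, sum_apply]
      apply Finset.sum_congr rfl
      intro l _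
      rw [map_smul]
      change x (del n l) * ev n l w = _
      rw [ev_apply, smul_eq_mul, mul_comm]
    have h2 : (x - ∑ n ∈ Finset.range S.N, ∑ l ∈ S.A n, x (del n l) • ev n l) w
        = x (w - resW S w) := by
      rw [sub_apply, h1, map_sub]
    rw [h2]
    have h3 := hS (w - resW S w) (fun n l hl => off_mem S w n l hl)
    have h4 : ‖w - resW S w‖ ≤ 2 * ‖w‖ := by
      calc _ ≤ ‖w‖ + ‖resW S w‖ := norm_sub_le _ _
        _ ≤ ‖w‖ + ‖w‖ := add_le_add le_rfl (norm_resW_le S w)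
        _ = 2 * ‖w‖ := by ring
    calc ‖x (w - resW S w)‖ ≤ ε / 2 * ‖w - resW S w‖ := h3
      _ ≤ ε / 2 * (2 * ‖w‖) := by gcongr
      _ = ε * ‖w‖ := by ring

lemma separableSpace_X : TopologicalSpace.SeparableSpace X := by
  rw [← TopologicalSpace.isSeparable_univ_iff]
  have h1 : TopologicalSpace.IsSeparable (Set.range fun p : ℕ × List ℕ => ev p.1 p.2) :=
    (Set.countable_range _).isSeparable
  have h2 := (h1.span (R := ℝ)).closure
  refine h2.mono ?_
  intro x _
  rw [Metric.mem_closure_iff]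
  intro ε hε
  obtain ⟨y, hy, hxy⟩ := exists_span_near x (show (0 : ℝ) < ε / 2 by linarith)
  refine ⟨y, hy, ?_⟩
  rw [dist_eq_norm]
  linarith

lemma aucRenormable_of_finiteDimensional (V : Type*) [NormedAddCommGroup V] [NormedSpace ℝ V]
    [FiniteDimensional ℝ V] : AUCRenormable V := by
  refine ⟨normSeminorm ℝ V, ⟨1, 1, one_pos, fun x => by simp⟩, ?_⟩
  intro t _
  have h1 : aucModulus (normSeminorm ℝ V) t = ⊤ := by
    unfold aucModulus
    rw [iInf₂_eq_top]
    intro x _
    rw [eq_top_iff]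
    refine le_iSup₂_of_le (⊥ : Submodule ℝ V) ⟨isClosed_singleton, inferInstance⟩ ?_
    refine le_iInf₂ fun y hy => ?_
    obtain ⟨h1, h2⟩ := hy
    have h3 : y = 0 := h1
    rw [h3] at h2
    simp at h2
  rw [h1]
  exact EReal.coe_lt_top 0

lemma not_finiteDimensional_X : ¬ FiniteDimensional ℝ X := by
  intro h
  exact not_aucRenormable (aucRenormable_of_finiteDimensional X)

lemma le_amucModulus (t : ℝ) (ht : 0 < t) :
    (((min t 1) ^ 2 / 64 : ℝ) : EReal) ≤ amucModulus (normSeminorm ℝ X) t := by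
  unfold amucModulus
  refine le_iInf₂ fun x hx => ?_
  rw [coe_normSeminorm] at hx
  refine le_of_forall_lt fun z hz => ?_
  obtain ⟨r, hzr, hr⟩ := EReal.lt_iff_exists_real_btwn.mp hz
  have hr' : r < (min t 1) ^ 2 / 64 := by exact_mod_cast hr
  obtain ⟨F, hF, hFy⟩ := amuc_main x hx t ht ((min t 1) ^ 2 / 64 - r) (by linarith)
  refine lt_of_lt_of_le hzr ?_
  refine le_iSup₂_of_le F hF ?_
  refine le_iInf₂ fun y hy => ?_
  have h1 := hFy y hy.1 hy.2
  simp only [coe_normSeminorm]
  have h2 : r ≤ max ‖x + t • y‖ ‖x - t • y‖ - 1 := by linarith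
  exact_mod_cast h2

lemma isAMUC_norm : IsAMUC (normSeminorm ℝ X) := by
  intro t ht
  refine lt_of_lt_of_le ?_ (le_amucModulus t ht)
  have h1 : 0 < min t 1 := lt_min ht one_pos
  have h2 : 0 < (min t 1) ^ 2 / 64 := by positivity
  exact_mod_cast h2

lemma amucRenormable_X : AMUCRenormable X :=
  ⟨normSeminorm ℝ X, ⟨1, 1, one_pos, fun x => by simp⟩, isAMUC_norm⟩

end Vale.Agent.P069
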